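import Mathlib

/-!
# P317: common bases with a paving matroid

If `M₂` is paving (every circuit has at least `rank` elements) or its dual is paving, and the two
matroids have a common base at all, then a polynomial fraction of the bases of an arbitrary matroid
`M₁` of the same rank on the same ground set are common bases.
-/

namespace Vale.Agent.Results.P317.A_paving

open Matroid Set

variable {α : Type*}

/-- `M` is paving of rank `r`: all bases have `r` elements and all circuits at least `r` elements. -/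
def IsPaving (M : Matroid α) (r : ℕ) : Prop :=
  (∀ B, M.IsBase B → B.encard = r) ∧ ∀ C, M.IsCircuit C → (r : ℕ∞) ≤ C.encard

/-- The set of common bases. -/
def commonBases (M₁ M₂ : Matroid α) : Set (Set α) := {B | M₁.IsBase B ∧ M₂.IsBase B}

/-- The set of bases of a matroid. -/
def bases (M : Matroid α) : Set (Set α) := {B | M.IsBase B}

section core

variable {M₁ M₂ : Matroid α} {r : ℕ}

lemma isBase_of_indep_encard (hr : ∀ B, M₂.IsBase B → B.encard = r) {Z : Set α}
    (hZ : M₂.Indep Z) (hc : Z.encard = r) : M₂.IsBase Z := by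
  obtain ⟨B, hB, hZB⟩ := hZ.exists_isBase_superset
  have hfin : Z.Finite := Set.finite_of_encard_eq_coe hc
  have : Z = B := Set.Finite.eq_of_subset_of_encard_le hfin hZB (by rw [hr B hB, hc])
  rwa [this]

/-- The exchange step: each bad base of `M₁` is one swap away from a common base. -/
lemma exists_swap (hE : M₁.E = M₂.E) (h₁ : ∀ B, M₁.IsBase B → B.encard = r) (h₂ : IsPaving M₂ r)
    {Y X : Set α} (hY₁ : M₁.IsBase Y) (hY₂ : M₂.IsBase Y) (hX₁ : M₁.IsBase X) (hX₂ : ¬ M₂.IsBase X) :
    ∃ Z e a, M₁.IsBase Z ∧ M₂.IsBase Z ∧ e ∈ Z ∧ a ∈ M₁.E \ Z ∧ X = insert a (Z \ {e}) := by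
  have hXE : X ⊆ M₂.E := hE ▸ hX₁.subset_ground
  have hXcard : X.encard = r := h₁ X hX₁
  have hXfin : X.Finite := Set.finite_of_encard_eq_coe hXcard
  -- `X` does not span `M₂`
  have hnotspan : ¬ M₂.Spanning X := by
    intro hs
    obtain ⟨B, hB, hBX⟩ := hs.exists_isBase_subset
    have : B = X := Set.Finite.eq_of_subset_of_encard_le (Set.finite_of_encard_eq_coe (h₂.1 B hB)) hBX (by rw [hXcard, h₂.1 B hB])
    exact hX₂ (this ▸ hB)
  -- an element of `Y` outside the closure of `X`
  obtain ⟨e, heY, heX⟩ : ∃ e ∈ Y, e ∉ M₂.closure X := by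
    by_contra hcon
    push Not at hcon
    apply hnotspan
    rw [spanning_iff_closure_eq hXE]
    apply subset_antisymm (M₂.closure_subset_ground X)
    rw [← hY₂.closure_eq]
    exact M₂.closure_subset_closure_of_subset_closure hcon
  have heE : e ∈ M₂.E := hY₂.subset_ground heY
  have heXnot : e ∉ X := fun h => heX (M₂.subset_closure X hXE h)
  -- exchange in `M₁`
  have hei : M₁.Indep {e} := hY₁.indep.subset (singleton_subset_iff.2 heY)
  obtain ⟨Z, hZ, heZ, hZsub⟩ := hei.exists_isBase_subset_union_isBase hX₁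
  have heZ' : e ∈ Z := heZ rfl
  have hZcard : Z.encard = r := h₁ Z hZ
  have hZfin : Z.Finite := Set.finite_of_encard_eq_coe hZcard
  -- the removed element
  obtain ⟨a, haX, haZ⟩ : ∃ a ∈ X, a ∉ Z := by
    by_contra hcon
    push Not at hcon
    have hXZ : insert e X ⊆ Z := insert_subset heZ' hcon
    have h1 : (insert e X).encard = X.encard + 1 := encard_insert_of_notMem heXnot
    have h2 := encard_le_encard hXZ
    rw [h1, hXcard, hZcard] at h2
    have : (r : ℕ∞) + 1 ≤ r := h2
    exact absurd (by exact_mod_cast this) (Nat.not_succ_le_self r)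
  have hZeq : Z = insert e (X \ {a}) := by
    apply Set.Finite.eq_of_subset_of_encard_le
    · exact hZfin
    · intro z hz
      rcases hZsub hz with h | h
      · exact Or.inl h
      · refine Or.inr ⟨h, ?_⟩
        rintro rfl
        exact haZ hz
    · have h3 : (X \ {a}).encard + 1 = X.encard := encard_sdiff_singleton_add_one haX
      have hnot : e ∉ X \ {a} := fun h => heXnot h.1
      rw [encard_insert_of_notMem hnot, h3, hXcard, hZcard]
  refine ⟨Z, e, a, hZ, ?_, heZ', ⟨hX₁.subset_ground haX, haZ⟩, ?_⟩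
  · -- `Z` is a base of `M₂`
    have hI : M₂.Indep (X \ {a}) := by
      by_contra hdep
      have hdep' : M₂.Dep (X \ {a}) := ⟨hdep, sdiff_subset.trans hXE⟩
      obtain ⟨C, hCsub, hC⟩ := hdep'.exists_isCircuit_subset
      have hcC := h₂.2 C hC
      have h4 := encard_le_encard hCsub
      have h5 : (X \ {a}).encard + 1 = X.encard := encard_sdiff_singleton_add_one haX
      rw [hXcard] at h5
      have h6 : (r : ℕ∞) + 1 ≤ r := by
        calc (r : ℕ∞) + 1 ≤ C.encard + 1 := by gcongr
          _ ≤ (X \ {a}).encard + 1 := by gcongr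
          _ = r := h5
      exact absurd (by exact_mod_cast h6) (Nat.not_succ_le_self r)
    have heNot : e ∉ M₂.closure (X \ {a}) := fun h =>
      heX (M₂.closure_subset_closure sdiff_subset h)
    have hins : M₂.Indep (insert e (X \ {a})) :=
      hI.insert_indep_iff.2 (Or.inl ⟨heE, heNot⟩)
    rw [hZeq]
    apply isBase_of_indep_encard h₂.1 hins
    rw [← hZeq, hZcard]
  · -- recover `X`
    have hsd : Z \ {e} = X \ {a} := by
      rw [hZeq]
      ext z
      simp only [mem_sdiff, mem_insert_iff, mem_singleton_iff]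
      constructor
      · rintro ⟨h | h, hne⟩
        · exact absurd h hne
        · exact h
      · rintro ⟨h, hne⟩
        exact ⟨Or.inr ⟨h, hne⟩, fun hh => heXnot (hh ▸ h)⟩
    rw [hsd, insert_sdiff_singleton, insert_eq_of_mem haX]

end core

/-- Counting: the bad bases inject into triples `(Z, e, a)`. -/
lemma card_bound [Finite α] (M₁ M₂ : Matroid α) (hE : M₁.E = M₂.E) (r : ℕ)
    (h₁ : ∀ B, M₁.IsBase B → B.encard = r) (h₂ : IsPaving M₂ r)
    (hN : (commonBases M₁ M₂).Nonempty) :
    (bases M₁).ncard ≤ (1 + r * (M₁.E.ncard - r)) * (commonBases M₁ M₂).ncard := by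
  classical
  obtain ⟨Y, hY₁, hY₂⟩ := hN
  have hfinS : ∀ S : Set (Set α), S.Finite := fun S => Set.toFinite S
  -- finsets
  let N : Finset (Set α) := (hfinS (commonBases M₁ M₂)).toFinset
  let D : Set (Set α) := bases M₁ \ commonBases M₁ M₂
  let EE : Finset α := (Set.toFinite M₁.E).toFinset
  let sZ : Set α → Finset α := fun Z => (Set.toFinite Z).toFinset
  let T : Finset (Σ _ : Set α, α × α) :=
    N.sigma (fun Z => sZ Z ×ˢ (EE \ sZ Z))
  let f : (Σ _ : Set α, α × α) → Set α := fun t => insert t.2.2 (t.1 \ {t.2.1})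
  have hDsub : D ⊆ f '' (T : Set _) := by
    rintro X ⟨hX₁, hXnot⟩
    have hX₂ : ¬ M₂.IsBase X := fun h => hXnot ⟨hX₁, h⟩
    obtain ⟨Z, e, a, hZ₁, hZ₂, heZ, haE, rfl⟩ := exists_swap hE h₁ h₂ hY₁ hY₂ hX₁ hX₂
    refine ⟨⟨Z, (e, a)⟩, ?_, rfl⟩
    simp only [T, N, sZ, EE, Finset.coe_sigma, Set.mem_sigma_iff, Finset.mem_coe,
      Set.Finite.mem_toFinset, Finset.mem_product, Finset.mem_sdiff]
    exact ⟨⟨hZ₁, hZ₂⟩, heZ, haE.1, haE.2⟩
  have hcardT : T.card = N.card * (r * (M₁.E.ncard - r)) := by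
    rw [Finset.card_sigma]
    have : ∀ Z ∈ N, (sZ Z ×ˢ (EE \ sZ Z)).card = r * (M₁.E.ncard - r) := by
      intro Z hZ
      have hZc : Z ∈ commonBases M₁ M₂ := by simpa [N] using hZ
      have hZenc : Z.encard = r := h₁ Z hZc.1
      have hZfin : Z.Finite := Set.toFinite Z
      have hcZ : (sZ Z).card = r := by
        have h7 : (sZ Z).card = Z.ncard := (Set.ncard_eq_toFinset_card Z hZfin).symm
        rw [h7, Set.ncard, hZenc]; simp
      have hsub : sZ Z ⊆ EE := by
        intro z hz
        simp only [sZ, EE, Set.Finite.mem_toFinset] at hz ⊢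
        exact hZc.1.subset_ground hz
      have hcE : EE.card = M₁.E.ncard := (Set.ncard_eq_toFinset_card _ (Set.toFinite _)).symm
      rw [Finset.card_product, Finset.card_sdiff_of_subset hsub, hcZ, hcE]
    rw [Finset.sum_congr rfl this, Finset.sum_const, smul_eq_mul]
  have hNcard : N.card = (commonBases M₁ M₂).ncard :=
    (Set.ncard_eq_toFinset_card _ (hfinS _)).symm
  have hD : D.ncard ≤ T.card := by
    calc D.ncard ≤ (f '' (T : Set _)).ncard := Set.ncard_le_ncard hDsub (Set.toFinite _)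
      _ ≤ (T : Set (Σ _ : Set α, α × α)).ncard := Set.ncard_image_le (Finset.finite_toSet T)
      _ = T.card := Set.ncard_coe_finset T
  have hcover : bases M₁ ⊆ D ∪ commonBases M₁ M₂ := by
    intro X hX
    by_cases h : X ∈ commonBases M₁ M₂
    · exact Or.inr h
    · exact Or.inl ⟨hX, h⟩
  calc (bases M₁).ncard ≤ (D ∪ commonBases M₁ M₂).ncard :=
        Set.ncard_le_ncard hcover (Set.toFinite _)
    _ ≤ D.ncard + (commonBases M₁ M₂).ncard := Set.ncard_union_le _ _
    _ ≤ (commonBases M₁ M₂).ncard * (r * (M₁.E.ncard - r)) + (commonBases M₁ M₂).ncard := by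
        rw [← hNcard, ← hcardT]; exact Nat.add_le_add_right hD _
    _ = (1 + r * (M₁.E.ncard - r)) * (commonBases M₁ M₂).ncard := by ring

/-- The dual reduction: bases and common bases correspond under complementation. -/
lemma dual_counts [Finite α] (M₁ M₂ : Matroid α) (hE : M₁.E = M₂.E) :
    (bases M₁✶).ncard = (bases M₁).ncard ∧
    (commonBases M₁✶ M₂✶).ncard = (commonBases M₁ M₂).ncard := by
  have hinj : Set.InjOn (fun B : Set α => M₁.E \ B) {B | B ⊆ M₁.E} := by
    intro A hA B hB h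
    have hA' : A ⊆ M₁.E := hA
    have hB' : B ⊆ M₁.E := hB
    have : M₁.E \ (M₁.E \ A) = M₁.E \ (M₁.E \ B) := congrArg (fun S => M₁.E \ S) h
    rwa [sdiff_sdiff_cancel_left hA', sdiff_sdiff_cancel_left hB'] at this
  constructor
  · have himg : bases M₁✶ = (fun B : Set α => M₁.E \ B) '' bases M₁ := by
      ext B
      simp only [bases, mem_ofPred_eq, mem_image]
      constructor
      · intro hB
        have hBE : B ⊆ M₁.E := by simpa using hB.subset_ground
        refine ⟨M₁.E \ B, ?_, sdiff_sdiff_cancel_left hBE⟩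
        rwa [dual_isBase_iff hBE] at hB
      · rintro ⟨A, hA, rfl⟩
        rw [dual_isBase_iff sdiff_subset, sdiff_sdiff_cancel_left hA.subset_ground]
        exact hA
    rw [himg]
    exact Set.InjOn.ncard_image (hinj.mono fun B (hB : M₁.IsBase B) => hB.subset_ground)
  · have himg : commonBases M₁✶ M₂✶ = (fun B : Set α => M₁.E \ B) '' commonBases M₁ M₂ := by
      ext B
      simp only [commonBases, mem_ofPred_eq, mem_image]
      constructor
      · rintro ⟨hB₁, hB₂⟩
        have hBE : B ⊆ M₁.E := by simpa using hB₁.subset_ground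
        have hBE' : B ⊆ M₂.E := hE ▸ hBE
        refine ⟨M₁.E \ B, ⟨?_, ?_⟩, sdiff_sdiff_cancel_left hBE⟩
        · rwa [dual_isBase_iff hBE] at hB₁
        · rw [hE]; rwa [dual_isBase_iff hBE'] at hB₂
      · rintro ⟨A, ⟨hA₁, hA₂⟩, rfl⟩
        refine ⟨?_, ?_⟩
        · rw [dual_isBase_iff sdiff_subset, sdiff_sdiff_cancel_left hA₁.subset_ground]
          exact hA₁
        · rw [hE, dual_isBase_iff sdiff_subset, sdiff_sdiff_cancel_left hA₂.subset_ground]
          exact hA₂
    rw [himg]
    exact Set.InjOn.ncard_image (hinj.mono fun B (hB : B ∈ commonBases M₁ M₂) => hB.1.subset_ground)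

/-- **Main theorem.** Let `M₁, M₂` be matroids of rank `r` on a common finite ground set of size
`n`. Suppose `M₂` or its dual is paving. If there is any common base, then
`|B(M₁)| ≤ (1 + r (n - r)) · |B(M₁) ∩ B(M₂)|`. -/
theorem result [Finite α] (M₁ M₂ : Matroid α) (hE : M₁.E = M₂.E) (r : ℕ)
    (h₁ : ∀ B, M₁.IsBase B → B.encard = r) (h₂r : ∀ B, M₂.IsBase B → B.encard = r)
    (hP : (∀ C, M₂.IsCircuit C → (r : ℕ∞) ≤ C.encard) ∨
      (∀ C, M₂✶.IsCircuit C → ((M₂.E.ncard - r : ℕ) : ℕ∞) ≤ C.encard))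
    (hN : ∃ Z, M₁.IsBase Z ∧ M₂.IsBase Z) :
    {B | M₁.IsBase B}.ncard ≤
      (1 + r * (M₁.E.ncard - r)) * {B | M₁.IsBase B ∧ M₂.IsBase B}.ncard := by
  rcases hP with hP | hP
  · exact card_bound M₁ M₂ hE r h₁ ⟨h₂r, hP⟩ hN
  · obtain ⟨Z, hZ₁, hZ₂⟩ := hN
    have hZfin : Z.Finite := Set.toFinite Z
    have hZenc := h₁ Z hZ₁
    have hZn : Z.ncard = r := by rw [Set.ncard, hZenc]; simp
    have hEn : r ≤ M₁.E.ncard := hZn ▸ Set.ncard_le_ncard hZ₁.subset_ground (Set.toFinite _)
    have hdualrank : ∀ (M : Matroid α), M.E = M₁.E → (∀ B, M.IsBase B → B.encard = r) →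
        ∀ B, M✶.IsBase B → B.encard = ((M₁.E.ncard - r : ℕ) : ℕ∞) := by
      intro M hM hMr B hB
      have hBE : B ⊆ M.E := by simpa using hB.subset_ground
      have hcomp : M.IsBase (M.E \ B) := (dual_isBase_iff hBE).1 hB
      have hc := hMr _ hcomp
      have hcn : (M.E \ B).ncard = r := by rw [Set.ncard, hc]; simp
      have hsum := Set.ncard_sdiff_add_ncard_of_subset hBE (Set.toFinite _)
      rw [hM] at hsum hcn
      rw [← Set.Finite.cast_ncard_eq (Set.toFinite B)]
      congr 1
      rw [hM] at hBE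
      omega
    have hE' : M₁✶.E = M₂✶.E := by simpa using hE
    have hkey := card_bound M₁✶ M₂✶ hE' (M₁.E.ncard - r)
      (hdualrank M₁ rfl h₁) ⟨hdualrank M₂ hE.symm h₂r, by rwa [← hE] at hP⟩
      ⟨M₁.E \ Z, by
        refine ⟨?_, ?_⟩
        · rw [dual_isBase_iff sdiff_subset, sdiff_sdiff_cancel_left hZ₁.subset_ground]; exact hZ₁
        · rw [hE, dual_isBase_iff sdiff_subset, sdiff_sdiff_cancel_left hZ₂.subset_ground]
          exact hZ₂⟩
    have hc := dual_counts M₁ M₂ hE
    have hEd : M₁✶.E = M₁.E := by simp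
    change (bases M₁).ncard ≤ _ * (commonBases M₁ M₂).ncard
    rw [← hc.1, ← hc.2]
    refine hkey.trans (le_of_eq ?_)
    rw [hEd]
    have h8 : M₁.E.ncard - (M₁.E.ncard - r) = r := by omega
    rw [h8, mul_comm (M₁.E.ncard - r) r]

end Vale.Agent.Results.P317.A_paving
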